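import Vale.Agent.P207.N6.H58.PicG
import Vale.Agent.P207.N6.H77.Aff6
import Vale.Agent.P207.N4.H547.RatD

/-!
# P207, theorem H: the picture from the geometry and the rates for large times
-/

open Set Filter Topology Metric MeasureTheory
open scoped ContDiff

set_option linter.unusedSectionVars false

noncomputable section

namespace Vale.Agent.P207.N4.W.H547

open Vale.Agent.P207.N3

variable [Dim]

variable {Γ X B : Type} [Group Γ] [MetricSpace X] [ProperSpace X] [MulAction Γ X]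
  [IsIsometricSMul Γ X] [TopologicalSpace B] [CompactSpace B] [T2Space B] [MulAction Γ B]
  [ContinuousConstSMul Γ B]

variable {L : Leaf Γ X B}

/-- the exact rates for large times, without the slack -/
theorem rate_weak {M : Metr L} (Ra : Rates M) (t : ℝ) (ht : Ra.T ≤ t) (x : X) (v : E2) :
    Real.exp (Ra.a * t) * ‖v‖ ≤ ‖N4.H77.Dt L t x v‖ ∧
      ‖N4.H77.Dt L t x v‖ ≤ Real.exp (Ra.b * t) * ‖v‖ := by
  have h0 : 0 ≤ Ra.sl * t := mul_nonneg Ra.sl_pos.le (Ra.T_pos.le.trans ht)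
  obtain ⟨h1, h2⟩ := Ra.rate t ht x v
  refine ⟨le_trans ?_ h1, h2.trans ?_⟩
  · have : Real.exp (Ra.a * t) ≤ Real.exp ((Ra.a + Ra.sl) * t) := Real.exp_le_exp.2 (by nlinarith)
    gcongr
  · have : Real.exp ((Ra.b - Ra.sl) * t) ≤ Real.exp (Ra.b * t) := Real.exp_le_exp.2 (by nlinarith)
    gcongr

/-- **(T1)** from the rates for large times -/
theorem aff_of_dyn {M : Metr L} (Ra : Rates M) :
    ∃ F : Aff L, (∀ x η, F.ch x η = F.c • N4.H77.aff L x η) ∧
    (∀ x, ∀ u ∈ ball (0 : E2) 3, F.ch x (L.e x u) = F.c • N4.H77.lin L x u) ∧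
    ∀ t x, ((F.P t x : E2 →L[ℝ] E2)) = N4.H77.Dt L t x := by
  have h1 := Ra.a_pos
  have h2 := Ra.pinch
  have h3 := Ra.a_le_b
  obtain ⟨a', h4, h5⟩ := exists_between (show Ra.b / 2 < Ra.a by linarith)
  exact H77.exists_aff (N4.H547.RatD.lrates_dyn M (a := Ra.a) (b := Ra.b) (a' := a') (T := Ra.T)
    (by linarith) h5 (by linarith) fun t ht x v => rate_weak Ra t ht x v) (by linarith)

theorem nonempty_aff {M : Metr L} (Ra : Rates M) : Nonempty (Aff L) := by
  obtain ⟨F, -⟩ := aff_of_dyn Ra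
  exact ⟨F⟩

/-- **the picture exists** -/
theorem picG_of [MeasurableSpace B] [BorelSpace B] {V : Type}
    [NormedAddCommGroup V] [NormedSpace ℝ V] [FiniteDimensional ℝ V] (S : Suite L V)
    (Cn : H618.Conn S.I S.M.U) (Ra : Rates S.M) :
    ∃ P : PicG L V, P.S = S ∧ P.Ra.a = Ra.a ∧ P.Ra.b = Ra.b := by
  obtain ⟨F, -, -, -⟩ := aff_of_dyn Ra
  exact ⟨PicG.mk' S Cn F Ra, rfl, rfl, rfl⟩

end Vale.Agent.P207.N4.W.H547
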